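import Vale.Agent.P091.Main

/-!
# P091: almost everywhere convergence on `L log L` is equivalent to the weak-`L¹` maximal estimate

The statement uses only Mathlib notions.  `AddCircle (2 * Real.pi)` with `haarAddCircle` is the
circle with normalized Lebesgue measure, `fourierCoeff f k` is the `k`-th Fourier coefficient, and
`fourier k x` is `e^{ikx}`.
-/

open MeasureTheory Filter Topology

namespace Vale.Agent.Results.P091.SteinEquiv

theorem result [Fact (0 < 2 * Real.pi)] :
    (∀ f : AddCircle (2 * Real.pi) → ℂ,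
        AEStronglyMeasurable f AddCircle.haarAddCircle →
        Integrable (fun x => ‖f x‖ * Real.log (2 + ‖f x‖)) AddCircle.haarAddCircle →
        ∀ᵐ x ∂AddCircle.haarAddCircle,
          Tendsto (fun N : ℕ => ∑ k ∈ Finset.Icc (-(N : ℤ)) N, fourierCoeff f k * fourier k x)
            atTop (𝓝 (f x)))
    ↔
    (∃ C : ℝ, ∀ f : AddCircle (2 * Real.pi) → ℂ,
        AEStronglyMeasurable f AddCircle.haarAddCircle →
        Integrable (fun x => ‖f x‖ * Real.log (2 + ‖f x‖)) AddCircle.haarAddCircle →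
        ∀ t : ℝ, 0 < t →
        ∫ x, ‖f x‖ / t * Real.log (2 + ‖f x‖ / t) ∂AddCircle.haarAddCircle ≤ 1 →
        ∀ lam : ℝ, 0 < lam →
          (AddCircle.haarAddCircle : Measure (AddCircle (2 * Real.pi)))
            {x | ∃ N : ℕ, lam < ‖∑ k ∈ Finset.Icc (-(N : ℤ)) N, fourierCoeff f k * fourier k x‖}
            ≤ ENNReal.ofReal (C * t / lam)) := by
  constructor
  · intro hA
    obtain ⟨C, hC⟩ := Vale.Agent.P091.weakType_of_not_unbounded (T := 2 * Real.pi) (by
      intro f hf hunb
      obtain ⟨x, hx1, hx2⟩ := ((hA f hf.1 hf.2).and hunb).exists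
      obtain ⟨R, hR⟩ := hx1.norm.bddAbove_range
      obtain ⟨N, hN⟩ := hx2 R
      exact absurd (hR ⟨N, rfl⟩) (not_le.2 hN))
    exact ⟨C, fun f h1 h2 t ht hmod lam hlam => hC f ⟨h1, h2⟩ t ht hmod lam hlam⟩
  · rintro ⟨C, hC⟩ f h1 h2
    exact Vale.Agent.P091.ae_tendsto_of_weakType (C := C)
      (fun f hf t ht hmod lam hlam => hC f hf.1 hf.2 t ht hmod lam hlam) ⟨h1, h2⟩

end Vale.Agent.Results.P091.SteinEquiv
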