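import Vale.Agent.P091.Main

/-!
# P091: three equivalent forms of almost everywhere convergence on `L log L`

(A) almost everywhere convergence of the Fourier series of every `f ∈ L log L`;
(C) the weak-`L¹` estimate for the Carleson maximal function on `L log L` (Luxemburg normalisation);
(B) no `f ∈ L log L` has Fourier sums that are unbounded at almost every point.
The theorem says (A) ↔ (C) and (A) ↔ (B).  The statement uses only Mathlib notions.
-/

open MeasureTheory Filter Topology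

namespace Vale.Agent.Results.P091.ThreeForms

theorem result [Fact (0 < 2 * Real.pi)] :
    ((∀ f : AddCircle (2 * Real.pi) → ℂ,
        AEStronglyMeasurable f AddCircle.haarAddCircle →
        Integrable (fun x => ‖f x‖ * Real.log (2 + ‖f x‖)) AddCircle.haarAddCircle →
        ∀ᵐ x ∂AddCircle.haarAddCircle,
          Tendsto (fun N : ℕ => ∑ k ∈ Finset.Icc (-(N : ℤ)) N, fourierCoeff f k * fourier k x)
            atTop (𝓝 (f x)))
    ↔
    (∃ C : ℝ, ∀ f : AddCircle (2 * Real.pi) → ℂ,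
        AEStronglyMeasurable f AddCircle.haarAddCircle →
        Integrable (fun x => ‖f x‖ * Real.log (2 + ‖f x‖)) AddCircle.haarAddCircle →
        ∀ t : ℝ, 0 < t →
        ∫ x, ‖f x‖ / t * Real.log (2 + ‖f x‖ / t) ∂AddCircle.haarAddCircle ≤ 1 →
        ∀ lam : ℝ, 0 < lam →
          (AddCircle.haarAddCircle : Measure (AddCircle (2 * Real.pi)))
            {x | ∃ N : ℕ, lam < ‖∑ k ∈ Finset.Icc (-(N : ℤ)) N, fourierCoeff f k * fourier k x‖}
            ≤ ENNReal.ofReal (C * t / lam)))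
    ∧
    ((∀ f : AddCircle (2 * Real.pi) → ℂ,
        AEStronglyMeasurable f AddCircle.haarAddCircle →
        Integrable (fun x => ‖f x‖ * Real.log (2 + ‖f x‖)) AddCircle.haarAddCircle →
        ∀ᵐ x ∂AddCircle.haarAddCircle,
          Tendsto (fun N : ℕ => ∑ k ∈ Finset.Icc (-(N : ℤ)) N, fourierCoeff f k * fourier k x)
            atTop (𝓝 (f x)))
    ↔
    (∀ f : AddCircle (2 * Real.pi) → ℂ,
        AEStronglyMeasurable f AddCircle.haarAddCircle →
        Integrable (fun x => ‖f x‖ * Real.log (2 + ‖f x‖)) AddCircle.haarAddCircle →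
        ¬ ∀ᵐ x ∂(AddCircle.haarAddCircle : Measure (AddCircle (2 * Real.pi))), ∀ R : ℝ, ∃ N : ℕ,
          R < ‖∑ k ∈ Finset.Icc (-(N : ℤ)) N, fourierCoeff f k * fourier k x‖)) := by
  have hAB : (∀ f : AddCircle (2 * Real.pi) → ℂ,
        AEStronglyMeasurable f AddCircle.haarAddCircle →
        Integrable (fun x => ‖f x‖ * Real.log (2 + ‖f x‖)) AddCircle.haarAddCircle →
        ∀ᵐ x ∂AddCircle.haarAddCircle,
          Tendsto (fun N : ℕ => ∑ k ∈ Finset.Icc (-(N : ℤ)) N, fourierCoeff f k * fourier k x)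
            atTop (𝓝 (f x))) →
      ∀ f : AddCircle (2 * Real.pi) → ℂ, Vale.Agent.P091.MemLlogL f →
        (∀ᵐ x ∂(AddCircle.haarAddCircle : Measure (AddCircle (2 * Real.pi))), ∀ R : ℝ, ∃ N,
          R < ‖Vale.Agent.P091.fourierSum f N x‖) → False := by
    intro hA f hf hunb
    obtain ⟨x, hx1, hx2⟩ := ((hA f hf.1 hf.2).and hunb).exists
    obtain ⟨R, hR⟩ := hx1.norm.bddAbove_range
    obtain ⟨N, hN⟩ := hx2 R
    exact absurd (hR ⟨N, rfl⟩) (not_le.2 hN)
  refine ⟨⟨?_, ?_⟩, ⟨?_, ?_⟩⟩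
  · intro hA
    obtain ⟨C, hC⟩ := Vale.Agent.P091.weakType_of_not_unbounded (T := 2 * Real.pi) (hAB hA)
    exact ⟨C, fun f h1 h2 t ht hmod lam hlam => hC f ⟨h1, h2⟩ t ht hmod lam hlam⟩
  · rintro ⟨C, hC⟩ f h1 h2
    exact Vale.Agent.P091.ae_tendsto_of_weakType (C := C)
      (fun f hf t ht hmod lam hlam => hC f hf.1 hf.2 t ht hmod lam hlam) ⟨h1, h2⟩
  · intro hA f h1 h2 hunb
    exact hAB hA f ⟨h1, h2⟩ hunb
  · intro hB
    obtain ⟨C, hC⟩ := Vale.Agent.P091.weakType_of_not_unbounded (T := 2 * Real.pi)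
      (fun f hf hunb => hB f hf.1 hf.2 hunb)
    intro f h1 h2
    exact Vale.Agent.P091.ae_tendsto_of_weakType (C := C) hC ⟨h1, h2⟩

end Vale.Agent.Results.P091.ThreeForms
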