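import Vale.Agent.P091.Main

/-!
# P091: a dichotomy for Fourier series of functions in `L log L`

Either every `f ∈ L log L` has an almost everywhere convergent Fourier series, or some
`f ∈ L log L` has Fourier sums that are unbounded at almost every point.
The statement uses only Mathlib notions.
-/

open MeasureTheory Filter Topology

namespace Vale.Agent.Results.P091.ZeroOne

theorem result [Fact (0 < 2 * Real.pi)] :
    (∀ f : AddCircle (2 * Real.pi) → ℂ,
        AEStronglyMeasurable f AddCircle.haarAddCircle →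
        Integrable (fun x => ‖f x‖ * Real.log (2 + ‖f x‖)) AddCircle.haarAddCircle →
        ∀ᵐ x ∂AddCircle.haarAddCircle,
          Tendsto (fun N : ℕ => ∑ k ∈ Finset.Icc (-(N : ℤ)) N, fourierCoeff f k * fourier k x)
            atTop (𝓝 (f x)))
    ∨
    (∃ f : AddCircle (2 * Real.pi) → ℂ,
        AEStronglyMeasurable f AddCircle.haarAddCircle ∧
        Integrable (fun x => ‖f x‖ * Real.log (2 + ‖f x‖)) AddCircle.haarAddCircle ∧
        ∀ᵐ x ∂(AddCircle.haarAddCircle : Measure (AddCircle (2 * Real.pi))), ∀ R : ℝ, ∃ N : ℕ,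
          R < ‖∑ k ∈ Finset.Icc (-(N : ℤ)) N, fourierCoeff f k * fourier k x‖) := by
  by_cases h : ∃ f : AddCircle (2 * Real.pi) → ℂ, Vale.Agent.P091.MemLlogL f ∧
      ∀ᵐ x ∂(AddCircle.haarAddCircle : Measure (AddCircle (2 * Real.pi))), ∀ R : ℝ, ∃ N,
        R < ‖Vale.Agent.P091.fourierSum f N x‖
  · obtain ⟨f, hf, hunb⟩ := h
    exact Or.inr ⟨f, hf.1, hf.2, hunb⟩
  · left
    obtain ⟨C, hC⟩ := Vale.Agent.P091.weakType_of_not_unbounded (T := 2 * Real.pi)
      (fun f hf hunb => h ⟨f, hf, hunb⟩)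
    intro f h1 h2
    exact Vale.Agent.P091.ae_tendsto_of_weakType (C := C) hC ⟨h1, h2⟩

end Vale.Agent.Results.P091.ZeroOne
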